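import Vale.Agent.Results.P150.GapField
import Vale.Agent.Results.P150.FastMixingC

open scoped Topology Matrix
open Filter MeasureTheory
open Vale.Agent.Lib.P150

namespace Vale.Agent.Results.P150.A0Conj

/-- SK heat-bath chain: spectral gap bound uniform over external fields below 0.448, and matching mixing-time and gap bounds for all inverse temperatures below 1/2. -/
theorem result :
    (∀ (β κ : ℝ) (hβ : 0 ≤ β) (hκ0 : 0 < κ) (hκ : κ < 1 - 223 / 100 * β),
      Tendsto (fun n : ℕ => disorder n {g | ¬ ((∀ f : Conf n → ℝ, κ * gibbsVar (skMatrix β g) f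
            ≤ - ∑ x, gibbs (skMatrix β g) x * f x * (generator (skMatrix β g) *ᵥ f) x) ∧
        ∀ (y : Fin n → ℝ) (f : Conf n → ℝ),
          κ * (∑ x, gibF (skMatrix β g) y x * f x ^ 2 - (∑ x, gibF (skMatrix β g) y x * f x) ^ 2)
            ≤ - ∑ x, gibF (skMatrix β g) y x * f x * (genF (skMatrix β g) y *ᵥ f) x)})
      atTop (𝓝 0)) ∧
    (∀ (β κ : ℝ) (hβ : 0 < β) (hκ0 : 0 < κ) (hκ : κ < 1 - 2 * β),
      ∃ C' c : ℝ, 0 < C' ∧ 0 < c ∧
      Tendsto (fun n : ℕ => disorder n {g | ¬ (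
          (∀ t, C' * Real.log n ≤ t → ∀ x, tvDist (skMatrix β g) t x ≤ 1 / 4) ∧
          (∀ t, 0 ≤ t → t ≤ c * Real.log n → ∃ x, 1 / 4 < tvDist (skMatrix β g) t x) ∧
          (∀ f : Conf n → ℝ, κ * gibbsVar (skMatrix β g) f
            ≤ - ∑ x, gibbs (skMatrix β g) x * f x * (generator (skMatrix β g) *ᵥ f) x) ∧
          (∃ f : Conf n → ℝ, 0 < gibbsVar (skMatrix β g) f ∧
            - ∑ x, gibbs (skMatrix β g) x * f x * (generator (skMatrix β g) *ᵥ f) x
              ≤ gibbsVar (skMatrix β g) f))})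
        atTop (𝓝 0)) :=
  ⟨@Vale.Agent.Results.P150.GapField.result, @Vale.Agent.Results.P150.FastMixingC.result⟩

end Vale.Agent.Results.P150.A0Conj
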