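import Vale.Agent.Lib.P150.Final

open scoped Topology Matrix
open Filter MeasureTheory

namespace Vale.Agent.Results.P150.FastMixing

open Vale.Agent.Lib.P150

/-- The bound `1 / 100` on the spectral gap together with `t_mix ≤ 350 log n` for `β ≤ 0.34`,
and the lower bound `t_mix ≥ c log n` for every `β > 0`, both with high probability. -/
theorem result :
    (∀ β : ℝ, 0 ≤ β → β ≤ 17 / 50 →
      Tendsto (fun n : ℕ => disorder n {g | ¬ ((∀ t, 350 * Real.log n ≤ t → ∀ x,
            tvDist (skMatrix β g) t x ≤ 1 / 4) ∧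
          ∀ f : Conf n → ℝ, 1 / 100 * gibbsVar (skMatrix β g) f
            ≤ - ∑ x, gibbs (skMatrix β g) x * f x * (generator (skMatrix β g) *ᵥ f) x)})
        atTop (𝓝 0)) ∧
    (∀ β : ℝ, 0 < β → ∃ c : ℝ, 0 < c ∧
      Tendsto (fun n : ℕ => disorder n {g | ¬ ∀ t, 0 ≤ t → t ≤ c * Real.log n →
          ∃ x, 1 / 4 < tvDist (skMatrix β g) t x}) atTop (𝓝 0)) := by
  constructor
  · intro β hβ hβ2
    refine tendsto_of_tendsto_of_tendsto_of_le_of_le' tendsto_const_nhds
      (tendsto_bad (r := 1 / 340) (by norm_num)) (Eventually.of_forall fun _ => bot_le) ?_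
    filter_upwards [eventually_ge_atTop 4] with n hn
    apply measure_mono
    intro g hg
    simp only [Set.mem_setOf_eq] at hg ⊢
    intro hgood
    apply hg
    obtain ⟨h1, h2⟩ := fast_on_good hβ hβ2 hn hgood
    refine ⟨h1, fun f => ?_⟩
    rw [dirichlet_eq (isCoupling_skMatrix β g) f]
    exact h2 f
  · intro β hβ
    refine ⟨1 / (16 * ((2 * (223 / 100 * β) + 99 / 25 * (101 / 100 * β ^ 2)) + 8)),
      by positivity, ?_⟩
    refine tendsto_of_tendsto_of_tendsto_of_le_of_le' tendsto_const_nhds
      (tendsto_bad (r := 1 / (1000 * β)) (by positivity))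
      (Eventually.of_forall fun _ => bot_le) ?_
    filter_upwards [eventually_ge_atTop 4] with n hn
    apply measure_mono
    intro g hg
    simp only [Set.mem_setOf_eq] at hg ⊢
    intro hgood
    apply hg
    intro t ht ht2
    exact slow_on_good hβ hn hgood ht ht2

end Vale.Agent.Results.P150.FastMixing
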