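import Vale.Agent.Lib.P150.Final2

open scoped Topology Matrix
open Filter MeasureTheory

namespace Vale.Agent.Results.P150.FastMixingB

open Vale.Agent.Lib.P150

/-- For every `0 < β < 100 / 223` and `κ < 1 - 2.23 β`, with high probability the mixing time of
heat bath dynamics for the SK measure is of order `log n` and the gap lies between `κ` and `1`. -/
theorem result (β κ : ℝ) (hβ : 0 < β) (hκ0 : 0 < κ) (hκ : κ < 1 - 223 / 100 * β) :
    ∃ C' c : ℝ, 0 < C' ∧ 0 < c ∧
      Tendsto (fun n : ℕ => disorder n {g | ¬ (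
          (∀ t, C' * Real.log n ≤ t → ∀ x, tvDist (skMatrix β g) t x ≤ 1 / 4) ∧
          (∀ t, 0 ≤ t → t ≤ c * Real.log n → ∃ x, 1 / 4 < tvDist (skMatrix β g) t x) ∧
          (∀ f : Conf n → ℝ, κ * gibbsVar (skMatrix β g) f
            ≤ - ∑ x, gibbs (skMatrix β g) x * f x * (generator (skMatrix β g) *ᵥ f) x) ∧
          (∃ f : Conf n → ℝ, 0 < gibbsVar (skMatrix β g) f ∧
            - ∑ x, gibbs (skMatrix β g) x * f x * (generator (skMatrix β g) *ᵥ f) x
              ≤ gibbsVar (skMatrix β g) f))})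
        atTop (𝓝 0) :=
  mixing_whp hβ hκ0 hκ

end Vale.Agent.Results.P150.FastMixingB
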