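import Vale.Agent.Lib.P150.SKHyp

open scoped Topology Matrix
open Filter MeasureTheory

namespace Vale.Agent.Results.P150.GapField

open Vale.Agent.Lib.P150

/-- For every `β < 100 / 223` and `κ < 1 - 2.23 β`, with high probability the spectral gap of heat
bath dynamics for the SK measure is at least `κ`, and the same holds with every external field. -/
theorem result (β κ : ℝ) (hβ : 0 ≤ β) (hκ0 : 0 < κ) (hκ : κ < 1 - 223 / 100 * β) :
    Tendsto (fun n : ℕ => disorder n {g | ¬ ((∀ f : Conf n → ℝ, κ * gibbsVar (skMatrix β g) f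
            ≤ - ∑ x, gibbs (skMatrix β g) x * f x * (generator (skMatrix β g) *ᵥ f) x) ∧
        ∀ (y : Fin n → ℝ) (f : Conf n → ℝ),
          κ * (∑ x, gibF (skMatrix β g) y x * f x ^ 2 - (∑ x, gibF (skMatrix β g) y x * f x) ^ 2)
            ≤ - ∑ x, gibF (skMatrix β g) y x * f x * (genF (skMatrix β g) y *ᵥ f) x)})
      atTop (𝓝 0) := by
  refine tendsto_of_tendsto_of_tendsto_of_le_of_le' tendsto_const_nhds
    (gap_whp hβ hκ0 hκ) (Eventually.of_forall fun _ => bot_le) ?_
  filter_upwards with n
  apply measure_mono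
  intro g hg
  simp only [Set.mem_ofPred_eq] at hg ⊢
  intro hgood
  apply hg
  refine ⟨fun f => ?_, hgood⟩
  have h := hgood 0 f
  rw [gibF_zero, genF_zero] at h
  exact h

end Vale.Agent.Results.P150.GapField
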